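import Vale.Agent.P107.Final

namespace Vale.Agent.Results.P107.A_full

open Vale.Agent.P107

theorem result (f0 : V3 × V3 → ℝ) (E0 B0 : V3 → V3) (h : Admissible f0 E0 B0) :
    ∃ (f : ℝ × V3 × V3 → ℝ) (E B : ℝ × V3 → V3), GlobalSolution f0 E0 B0 f E B :=
  global_solution h

end Vale.Agent.Results.P107.A_full
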